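import Vale.Agent.P028.Main

/-!
# Denominators with a bounded number of divisors
-/

open MeasureTheory Set Filter

namespace Vale.Agent.P028

/-- Pillai-type bound: `∑_{1 ≤ q < r} gcd(q,r) ≤ τ(r) r`. -/
lemma sum_gcd_le (r : ℕ) :
    ∑ q ∈ Finset.Ico 1 r, (Nat.gcd q r : ℝ) ≤ ((Nat.divisors r).card : ℝ) * r := by
  rcases Nat.eq_zero_or_pos r with h0 | hr
  · subst h0; simp
  have h1 : ∀ q ∈ Finset.Ico 1 r, (Nat.gcd q r : ℝ)
      ≤ ∑ d ∈ Nat.divisors r, (if d ∣ q then (d : ℝ) else 0) := by
    intro q _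
    have hmem : Nat.gcd q r ∈ Nat.divisors r :=
      Nat.mem_divisors.2 ⟨Nat.gcd_dvd_right q r, hr.ne'⟩
    have h2 := Finset.single_le_sum (f := fun d : ℕ => (if d ∣ q then (d : ℝ) else 0))
      (s := Nat.divisors r) (fun d _ => by split_ifs <;> positivity) hmem
    simpa [Nat.gcd_dvd_left q r] using h2
  calc ∑ q ∈ Finset.Ico 1 r, (Nat.gcd q r : ℝ)
      ≤ ∑ q ∈ Finset.Ico 1 r, ∑ d ∈ Nat.divisors r, (if d ∣ q then (d : ℝ) else 0) :=
        Finset.sum_le_sum h1
    _ = ∑ d ∈ Nat.divisors r, ∑ q ∈ Finset.Ico 1 r, (if d ∣ q then (d : ℝ) else 0) :=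
        Finset.sum_comm
    _ ≤ ∑ d ∈ Nat.divisors r, (r : ℝ) := by
        apply Finset.sum_le_sum
        intro d hd
        have hdr : d ∣ r := (Nat.mem_divisors.1 hd).1
        have hdpos : 0 < d := Nat.pos_of_mem_divisors hd
        rw [← Finset.sum_filter, Finset.sum_const, nsmul_eq_mul]
        have hsub : (Finset.Ico 1 r).filter (fun q => d ∣ q)
            ⊆ (Finset.Ioc 0 r).filter (fun q => d ∣ q) := by
          intro q hq
          rw [Finset.mem_filter, Finset.mem_Ico] at hq
          rw [Finset.mem_filter, Finset.mem_Ioc]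
          exact ⟨⟨by omega, by omega⟩, hq.2⟩
        have hcard := Finset.card_le_card hsub
        rw [Nat.Ioc_filter_dvd_card_eq_div] at hcard
        have h3 : (((Finset.Ico 1 r).filter (fun q => d ∣ q)).card : ℝ) ≤ ((r / d : ℕ) : ℝ) := by
          exact_mod_cast hcard
        have h4 : ((r / d : ℕ) : ℝ) * d = r := by
          have := Nat.div_mul_cancel hdr
          exact_mod_cast this
        calc (((Finset.Ico 1 r).filter (fun q => d ∣ q)).card : ℝ) * d
            ≤ ((r / d : ℕ) : ℝ) * d := by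
              apply mul_le_mul_of_nonneg_right h3 (by positivity)
          _ = r := h4
    _ = ((Nat.divisors r).card : ℝ) * r := by
        rw [Finset.sum_const, nsmul_eq_mul]

/-- If the part of `ψ` carried by integers with at most `K` divisors has divergent sum, then
for every sequence of shifts, almost every `x` is approximable infinitely often. -/
theorem bounded_divisors (K : ℕ) (ψ : ℕ → ℝ) (hψ0 : ∀ q, 0 ≤ ψ q)
    (hdiv : ¬ Summable (fun q => if (Nat.divisors q).card ≤ K then ψ q else 0)) (γ : ℕ → ℝ) :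
    ∀ᵐ x : ℝ, {q : ℕ | 0 < q ∧ ∃ a : ℤ, |(q : ℝ) * x - a - γ q| < ψ q}.Infinite := by
  set S : Set ℕ := {q | (Nat.divisors q).card ≤ K} with hS
  have : DecidablePred (fun q => q ∈ S) := fun q => Nat.decLe _ _
  set ψ' : ℕ → ℝ := fun q => if (Nat.divisors q).card ≤ K then ψ q else 0 with hψ'
  have h := main S K ?_ ψ' ?_ ?_ hdiv γ
  · filter_upwards [h] with x hx
    refine hx.mono ?_
    rintro q ⟨hq, a, ha⟩
    refine ⟨hq, a, lt_of_lt_of_le ha ?_⟩
    simp only [hψ']
    split_ifs
    · exact le_rfl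
    · exact hψ0 q
  · intro r hr
    calc ∑ q ∈ (Finset.Ico 1 r).filter (fun q => q ∈ S), (Nat.gcd q r : ℝ)
        ≤ ∑ q ∈ Finset.Ico 1 r, (Nat.gcd q r : ℝ) := by
          apply Finset.sum_le_sum_of_subset_of_nonneg (Finset.filter_subset _ _)
          intro i _ _
          positivity
      _ ≤ ((Nat.divisors r).card : ℝ) * r := sum_gcd_le r
      _ ≤ (K : ℝ) * r := by
          apply mul_le_mul_of_nonneg_right _ (by positivity)
          exact_mod_cast hr
  · intro q
    simp only [hψ']
    split_ifs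
    · exact hψ0 q
    · exact le_rfl
  · intro q hq
    simp only [hψ']
    exact if_neg hq

end Vale.Agent.P028
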