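import Vale.Agent.P028.ErdosRenyi
import Vale.Agent.P028.Divisors

/-!
# A general second-moment criterion for inhomogeneous approximation with arbitrary shifts
-/

open MeasureTheory Set Filter

namespace Vale.Agent.P028

/-- the events on the circle -/
noncomputable def Ev (ψ γ : ℕ → ℝ) (q : ℕ) : Set UnitAddCircle :=
  if 0 < q ∧ 0 < ψ q then A q (γ q : UnitAddCircle) (min (ψ q) 1 / 2) else ∅

/-- the weights in the overlap estimate -/
noncomputable def wt (ψ : ℕ → ℝ) (i j : ℕ) : ℝ :=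
  if 0 < i ∧ 0 < ψ i then (Nat.gcd i j : ℝ) / j else 0

lemma Ev_meas (ψ γ : ℕ → ℝ) (q : ℕ) : MeasurableSet (Ev ψ γ q) := by
  unfold Ev
  split_ifs
  · exact measurableSet_A _ _ _
  · exact MeasurableSet.empty

lemma Ev_real (ψ γ : ℕ → ℝ) (hψ0 : ∀ q, 0 ≤ ψ q) (q : ℕ) (hq : 0 < q) :
    volume.real (Ev ψ γ q) = min (ψ q) 1 := by
  unfold Ev
  by_cases h : 0 < ψ q
  · rw [if_pos ⟨hq, h⟩, volume_real_A q hq _ _ (by positivity)]
    have : 2 * (min (ψ q) 1 / 2) = min (ψ q) 1 := by ring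
    rw [this]
    exact min_eq_right (min_le_right _ _)
  · have h' : ψ q = 0 := le_antisymm (not_lt.1 h) (hψ0 q)
    rw [if_neg (fun hh => h hh.2), h']
    simp

lemma Ev_zero (ψ γ : ℕ → ℝ) : volume.real (Ev ψ γ 0) = 0 := by
  simp [Ev]

lemma wt_nonneg (ψ : ℕ → ℝ) (i j : ℕ) : 0 ≤ wt ψ i j := by
  unfold wt
  split_ifs
  · positivity
  · exact le_rfl

lemma Ev_pair (ψ γ : ℕ → ℝ) (hψ0 : ∀ q, 0 ≤ ψ q) (i j : ℕ) :
    volume.real (Ev ψ γ i ∩ Ev ψ γ j)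
      ≤ volume.real (Ev ψ γ i) * volume.real (Ev ψ γ j) + volume.real (Ev ψ γ j) * wt ψ i j := by
  by_cases hi : 0 < i ∧ 0 < ψ i
  · by_cases hj : 0 < j ∧ 0 < ψ j
    · have hov := overlap i j hi.1 hj.1 (γ i : UnitAddCircle) (γ j : UnitAddCircle)
        (min (ψ i) 1 / 2) (min (ψ j) 1 / 2) (by have := hψ0 i; positivity)
      have e1 : Ev ψ γ i = A i (γ i : UnitAddCircle) (min (ψ i) 1 / 2) := by
        unfold Ev; rw [if_pos hi]
      have e2 : Ev ψ γ j = A j (γ j : UnitAddCircle) (min (ψ j) 1 / 2) := by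
        unfold Ev; rw [if_pos hj]
      have e3 : wt ψ i j = (Nat.gcd i j : ℝ) / j := by
        unfold wt; rw [if_pos hi]
      have e4 : volume.real (Ev ψ γ i) = 2 * (min (ψ i) 1 / 2) := by
        rw [Ev_real ψ γ hψ0 i hi.1]; ring
      rw [← e1, ← e2] at hov
      rw [e3, e4]
      calc volume.real (Ev ψ γ i ∩ Ev ψ γ j)
          ≤ volume.real (Ev ψ γ j) * (2 * (min (ψ i) 1 / 2) + (Nat.gcd i j : ℝ) / j) := hov
        _ = _ := by ring
    · have e2 : Ev ψ γ j = ∅ := by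
        unfold Ev; rw [if_neg hj]
      rw [e2]
      simp
  · have e1 : Ev ψ γ i = ∅ := by
      unfold Ev; rw [if_neg hi]
    rw [e1]
    simp only [Set.empty_inter, measureReal_empty, zero_mul, zero_add]
    exact mul_nonneg measureReal_nonneg (wt_nonneg ψ i j)

lemma Ev_transfer (ψ γ : ℕ → ℝ)
    (h : ∀ᵐ y : UnitAddCircle, {q | y ∈ Ev ψ γ q}.Infinite) :
    ∀ᵐ x : ℝ, {q : ℕ | 0 < q ∧ ∃ a : ℤ, |(q : ℝ) * x - a - γ q| < ψ q}.Infinite := by
  have hreal := ae_real_of_ae_circle h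
  filter_upwards [hreal] with x hx
  refine hx.mono ?_
  intro q hq
  simp only [Set.mem_ofPred_eq] at hq ⊢
  by_cases hq' : 0 < q ∧ 0 < ψ q
  · have e1 : Ev ψ γ q = A q (γ q : UnitAddCircle) (min (ψ q) 1 / 2) := by
      unfold Ev; rw [if_pos hq']
    rw [e1] at hq
    obtain ⟨a, ha⟩ := mem_A_real q x (γ q) _ hq
    refine ⟨hq'.1, a, lt_of_le_of_lt ha ?_⟩
    have : min (ψ q) 1 ≤ ψ q := min_le_left _ _
    linarith [hq'.2]
  · have e1 : Ev ψ γ q = ∅ := by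
      unfold Ev; rw [if_neg hq']
    rw [e1] at hq
    exact absurd hq (Set.notMem_empty _)

lemma sum_range_eq_Ico (f : ℕ → ℝ) (h0 : f 0 = 0) (n : ℕ) :
    ∑ i ∈ Finset.range n, f i = ∑ i ∈ Finset.Ico 1 n, f i := by
  rcases Nat.eq_zero_or_pos n with h | h
  · subst h; simp
  · rw [Finset.range_eq_Ico, Finset.sum_eq_sum_Ico_succ_bot h, h0, zero_add]

/-- **General criterion.** -/
theorem criterion (ψ : ℕ → ℝ) (hψ0 : ∀ q, 0 ≤ ψ q) (hψ1 : ∀ q, ψ q ≤ 1) (γ : ℕ → ℝ)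
    (H : ∀ M : ℝ, ∃ Q : ℕ, 0 < ∑ q ∈ Finset.Ico 1 Q, ψ q ∧
      M * (∑ q ∈ Finset.Ico 1 Q, ψ q + ∑ r ∈ Finset.Ico 1 Q, ψ r *
        ∑ q ∈ (Finset.Ico 1 r).filter (fun q => 0 < ψ q), (Nat.gcd q r : ℝ) / r)
        ≤ (∑ q ∈ Finset.Ico 1 Q, ψ q) ^ 2) :
    ∀ᵐ x : ℝ, {q : ℕ | 0 < q ∧ ∃ a : ℤ, |(q : ℝ) * x - a - γ q| < ψ q}.Infinite := by
  apply Ev_transfer
  have : IsProbabilityMeasure (volume : Measure UnitAddCircle) := ⟨UnitAddCircle.measure_univ⟩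
  apply ae_infinite_of_liminf volume (Ev_meas ψ γ)
  intro ε hε K
  obtain ⟨Q, hpos, hQ⟩ := H (max (max K (2 / ε)) 1)
  set M := max (max K (2 / ε)) 1 with hM
  have hM1 : 1 ≤ M := le_max_right _ _
  have hMK : K ≤ M := le_trans (le_max_left _ _) (le_max_left _ _)
  have hMε : 2 / ε ≤ M := le_trans (le_max_right _ _) (le_max_left _ _)
  have hm : ∀ q, 0 < q → volume.real (Ev ψ γ q) = ψ q := by
    intro q hq
    rw [Ev_real ψ γ hψ0 q hq, min_eq_left (hψ1 q)]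
  have ea : ∑ i ∈ Finset.range Q, volume.real (Ev ψ γ i) = ∑ q ∈ Finset.Ico 1 Q, ψ q := by
    rw [sum_range_eq_Ico _ (Ev_zero ψ γ)]
    apply Finset.sum_congr rfl
    intro q hq
    exact hm q (by have := (Finset.mem_Ico.1 hq).1; omega)
  have eG : ∑ j ∈ Finset.range Q, volume.real (Ev ψ γ j) * ∑ i ∈ Finset.range j, wt ψ i j
      = ∑ r ∈ Finset.Ico 1 Q, ψ r *
        ∑ q ∈ (Finset.Ico 1 r).filter (fun q => 0 < ψ q), (Nat.gcd q r : ℝ) / r := by
    rw [sum_range_eq_Ico _ (by rw [Ev_zero]; simp)]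
    apply Finset.sum_congr rfl
    intro r hr
    rw [hm r (by have := (Finset.mem_Ico.1 hr).1; omega)]
    congr 1
    rw [sum_range_eq_Ico _ (by simp [wt]), Finset.sum_filter]
    apply Finset.sum_congr rfl
    intro q hq
    have hq1 : 0 < q := by have := (Finset.mem_Ico.1 hq).1; omega
    unfold wt
    by_cases h : 0 < ψ q
    · simp [hq1, h]
    · simp [h]
  set a := ∑ q ∈ Finset.Ico 1 Q, ψ q with ha
  set G := ∑ r ∈ Finset.Ico 1 Q, ψ r *
        ∑ q ∈ (Finset.Ico 1 r).filter (fun q => 0 < ψ q), (Nat.gcd q r : ℝ) / r with hG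
  have hGnn : 0 ≤ G := by
    apply Finset.sum_nonneg
    intro r _
    apply mul_nonneg (hψ0 r)
    apply Finset.sum_nonneg
    intro q _
    positivity
  refine ⟨Q, ?_, ?_⟩
  · rw [ea]
    have h1 : M * a ≤ a ^ 2 := by nlinarith
    have h2 : M ≤ a := by nlinarith
    linarith
  · have hd := double_sum_le volume (wt ψ) (fun i j _ => Ev_pair ψ γ hψ0 i j) Q
    rw [ea, eG] at hd
    rw [ea]
    have h3 : 2 * (a + G) ≤ ε * a ^ 2 := by
      have h4 : (2 / ε) * (a + G) ≤ a ^ 2 := by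
        have : (2 / ε) * (a + G) ≤ M * (a + G) := by
          apply mul_le_mul_of_nonneg_right hMε (by linarith)
        linarith
      have h5 : ε * ((2 / ε) * (a + G)) = 2 * (a + G) := by
        field_simp
      nlinarith
    nlinarith

/-- **Divisor-weighted extra divergence.** -/
theorem tau_criterion (ψ : ℕ → ℝ) (hψ0 : ∀ q, 0 ≤ ψ q) (hψ1 : ∀ q, ψ q ≤ 1) (γ : ℕ → ℝ)
    (H : ∀ M : ℝ, ∃ Q : ℕ, 0 < ∑ q ∈ Finset.Ico 1 Q, ψ q ∧
      M * (∑ q ∈ Finset.Ico 1 Q, ((Nat.divisors q).card : ℝ) * ψ q)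
        ≤ (∑ q ∈ Finset.Ico 1 Q, ψ q) ^ 2) :
    ∀ᵐ x : ℝ, {q : ℕ | 0 < q ∧ ∃ a : ℤ, |(q : ℝ) * x - a - γ q| < ψ q}.Infinite := by
  apply criterion ψ hψ0 hψ1 γ
  intro M
  obtain ⟨Q, hpos, hQ⟩ := H (2 * max M 0)
  refine ⟨Q, hpos, ?_⟩
  have h1 : ∑ q ∈ Finset.Ico 1 Q, ψ q
      ≤ ∑ q ∈ Finset.Ico 1 Q, ((Nat.divisors q).card : ℝ) * ψ q := by
    apply Finset.sum_le_sum
    intro q hq
    have hq1 : q ≠ 0 := by have := (Finset.mem_Ico.1 hq).1; omega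
    have : (1 : ℝ) ≤ ((Nat.divisors q).card : ℝ) := by
      have : 0 < (Nat.divisors q).card :=
        Finset.card_pos.2 ⟨1, Nat.one_mem_divisors.2 hq1⟩
      exact_mod_cast this
    nlinarith [hψ0 q]
  have h2 : ∑ r ∈ Finset.Ico 1 Q, ψ r *
        ∑ q ∈ (Finset.Ico 1 r).filter (fun q => 0 < ψ q), (Nat.gcd q r : ℝ) / r
      ≤ ∑ q ∈ Finset.Ico 1 Q, ((Nat.divisors q).card : ℝ) * ψ q := by
    apply Finset.sum_le_sum
    intro r hr
    have hr1 : 0 < r := by have := (Finset.mem_Ico.1 hr).1; omega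
    have hr' : (0 : ℝ) < r := by exact_mod_cast hr1
    rw [mul_comm]
    apply mul_le_mul_of_nonneg_right _ (hψ0 r)
    rw [← Finset.sum_div, div_le_iff₀ hr']
    calc ∑ q ∈ (Finset.Ico 1 r).filter (fun q => 0 < ψ q), (Nat.gcd q r : ℝ)
        ≤ ∑ q ∈ Finset.Ico 1 r, (Nat.gcd q r : ℝ) := by
          apply Finset.sum_le_sum_of_subset_of_nonneg (Finset.filter_subset _ _)
          intro i _ _
          positivity
      _ ≤ ((Nat.divisors r).card : ℝ) * r := sum_gcd_le r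
  set T := ∑ q ∈ Finset.Ico 1 Q, ((Nat.divisors q).card : ℝ) * ψ q with hT
  have hTnn : 0 ≤ T := le_trans hpos.le h1
  have hM0 : 0 ≤ max M 0 := le_max_right _ _
  have hMM : M ≤ max M 0 := le_max_left _ _
  calc M * (∑ q ∈ Finset.Ico 1 Q, ψ q + ∑ r ∈ Finset.Ico 1 Q, ψ r *
        ∑ q ∈ (Finset.Ico 1 r).filter (fun q => 0 < ψ q), (Nat.gcd q r : ℝ) / r)
      ≤ max M 0 * (∑ q ∈ Finset.Ico 1 Q, ψ q + ∑ r ∈ Finset.Ico 1 Q, ψ r *
        ∑ q ∈ (Finset.Ico 1 r).filter (fun q => 0 < ψ q), (Nat.gcd q r : ℝ) / r) := by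
        apply mul_le_mul_of_nonneg_right hMM
        apply add_nonneg hpos.le
        apply Finset.sum_nonneg
        intro r _
        apply mul_nonneg (hψ0 r)
        apply Finset.sum_nonneg
        intro q _
        positivity
    _ ≤ max M 0 * (T + T) := by
        apply mul_le_mul_of_nonneg_left _ hM0
        linarith
    _ = 2 * max M 0 * T := by ring
    _ ≤ _ := hQ

end Vale.Agent.P028
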