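import Vale.Agent.P028.SecondMoment

/-!
# Erdos-Renyi form of the second-moment Borel-Cantelli lemma
-/

open MeasureTheory Set Filter

namespace Vale.Agent.P028

set_option linter.unusedSectionVars false

variable {Ω : Type*} [MeasurableSpace Ω] (μ : Measure Ω) [IsProbabilityMeasure μ]

/-- If for every `ε > 0` and `K` there is `n` with `∑_{i<n} μ(E i) ≥ K` and
`∑_{i,j<n} μ(E i ∩ E j) ≤ (1+ε) (∑_{i<n} μ(E i))^2`, then a.e. point is in infinitely many
`E i`. -/
theorem ae_infinite_of_liminf {E : ℕ → Set Ω} (hE : ∀ i, MeasurableSet (E i))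
    (h : ∀ ε : ℝ, 0 < ε → ∀ K : ℝ, ∃ n, K ≤ ∑ i ∈ Finset.range n, μ.real (E i) ∧
      ∑ i ∈ Finset.range n, ∑ j ∈ Finset.range n, μ.real (E i ∩ E j)
        ≤ (1 + ε) * (∑ i ∈ Finset.range n, μ.real (E i)) ^ 2) :
    ∀ᵐ ω ∂μ, {i | ω ∈ E i}.Infinite := by
  set Z : ℕ → Set Ω := fun K => {ω | ∀ n, cnt E n ω ≤ K} with hZ
  have hZmeas : ∀ K, MeasurableSet (Z K) := by
    intro K
    have : Z K = ⋂ n, {ω | cnt E n ω ≤ K} := by
      ext ω; simp [hZ]
    rw [this]
    exact MeasurableSet.iInter (fun n => measurableSet_le (cnt_measurable hE n) measurable_const)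
  have hZnull : ∀ K, μ (Z K) = 0 := by
    intro K
    have key : ∀ ε : ℝ, 0 < ε → μ.real (Z K) ≤ 4 * ε := by
      intro ε hε
      obtain ⟨n, hn, hT⟩ := h ε hε (2 * (K : ℝ) + 1)
      set a := ∑ i ∈ Finset.range n, μ.real (E i) with ha
      have hapos : 0 < a := by
        have : (0 : ℝ) ≤ K := Nat.cast_nonneg K
        linarith
      have h1 : ∫ ω, (cnt E n ω - a) ^ 2 ∂μ ≤ ε * a ^ 2 := by
        rw [ha, integral_cnt_sub_sq μ hE n]
        linarith
      have h2 : ∫ ω, (Z K).indicator (fun _ => (a / 2) ^ 2) ω ∂μ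
          ≤ ∫ ω, (cnt E n ω - a) ^ 2 ∂μ := by
        apply integral_mono
        · exact (integrable_const _).indicator (hZmeas K)
        · have h1 : ∀ ω, (cnt E n ω - a) ^ 2 = cnt E n ω ^ 2 - (2 * a) * cnt E n ω + a ^ 2 := by
            intro ω; ring
          simp_rw [h1]
          exact ((integrable_cnt_sq μ hE n).sub ((integrable_cnt μ hE n).const_mul _)).add
            (integrable_const _)
        · intro ω
          by_cases hω : ω ∈ Z K
          · simp only [Set.indicator_of_mem hω]
            have h3 : cnt E n ω ≤ K := hω n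
            have h4 : a / 2 ≤ a - cnt E n ω := by linarith
            have h5 : (a / 2) ^ 2 ≤ (a - cnt E n ω) ^ 2 := by
              apply pow_le_pow_left₀ (by positivity) h4
            calc (a / 2) ^ 2 ≤ (a - cnt E n ω) ^ 2 := h5
              _ = (cnt E n ω - a) ^ 2 := by ring
          · simp only [Set.indicator_of_notMem hω]
            positivity
      rw [integral_indicator (hZmeas K)] at h2
      simp only [integral_const, MeasurableSet.univ, measureReal_restrict_apply, univ_inter,
        smul_eq_mul] at h2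
      have h6 : μ.real (Z K) * (a / 2) ^ 2 ≤ ε * a ^ 2 := le_trans h2 h1
      have h7 : μ.real (Z K) * a ^ 2 ≤ 4 * ε * a ^ 2 := by nlinarith
      exact le_of_mul_le_mul_right h7 (by positivity)
    have h0 : μ.real (Z K) ≤ 0 := by
      apply le_of_forall_pos_le_add
      intro ε hε
      have := key (ε / 4) (by positivity)
      linarith
    have h1 : μ.real (Z K) = 0 := le_antisymm h0 measureReal_nonneg
    rwa [measureReal_def, ENNReal.toReal_eq_zero_iff, or_iff_left (measure_ne_top _ _)] at h1
  have hnull : μ (⋃ K, Z K) = 0 := measure_iUnion_null hZnull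
  rw [ae_iff]
  refine measure_mono_null ?_ hnull
  intro ω hω
  simp only [Set.mem_ofPred_eq, Set.not_infinite] at hω
  rw [Set.mem_iUnion]
  refine ⟨hω.toFinset.card, ?_⟩
  intro n
  unfold cnt
  classical
  rw [Finset.sum_indicator_eq_sum_filter]
  simp only [Finset.sum_const, nsmul_eq_mul, mul_one]
  norm_cast
  apply Finset.card_le_card
  intro i hi
  simp only [Finset.mem_filter] at hi
  simpa using hi.2

/-- bound for the double sum from pairwise overlap bounds -/
lemma double_sum_le {E : ℕ → Set Ω} (w : ℕ → ℕ → ℝ)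
    (hpair : ∀ i j, i < j → μ.real (E i ∩ E j) ≤ μ.real (E i) * μ.real (E j) + μ.real (E j) * w i j)
    (n : ℕ) :
    ∑ i ∈ Finset.range n, ∑ j ∈ Finset.range n, μ.real (E i ∩ E j)
      ≤ (∑ i ∈ Finset.range n, μ.real (E i)) ^ 2 + ∑ i ∈ Finset.range n, μ.real (E i)
        + 2 * ∑ j ∈ Finset.range n, μ.real (E j) * ∑ i ∈ Finset.range j, w i j := by
  induction n with
  | zero => simp
  | succ n ih =>
    have h1 : ∑ i ∈ Finset.range (n + 1), ∑ j ∈ Finset.range (n + 1), μ.real (E i ∩ E j)
        = (∑ i ∈ Finset.range n, ∑ j ∈ Finset.range n, μ.real (E i ∩ E j))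
          + 2 * (∑ i ∈ Finset.range n, μ.real (E i ∩ E n)) + μ.real (E n) := by
      rw [Finset.sum_range_succ]
      simp_rw [Finset.sum_range_succ]
      rw [Finset.sum_add_distrib, Set.inter_self]
      have : ∑ j ∈ Finset.range n, μ.real (E n ∩ E j) = ∑ i ∈ Finset.range n, μ.real (E i ∩ E n) := by
        apply Finset.sum_congr rfl
        intro i _
        rw [Set.inter_comm]
      rw [this]
      ring
    have h2 : ∑ i ∈ Finset.range n, μ.real (E i ∩ E n)
        ≤ (∑ i ∈ Finset.range n, μ.real (E i)) * μ.real (E n)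
          + μ.real (E n) * ∑ i ∈ Finset.range n, w i n := by
      calc ∑ i ∈ Finset.range n, μ.real (E i ∩ E n)
          ≤ ∑ i ∈ Finset.range n, (μ.real (E i) * μ.real (E n) + μ.real (E n) * w i n) := by
            apply Finset.sum_le_sum
            intro i hi
            exact hpair i n (Finset.mem_range.1 hi)
        _ = (∑ i ∈ Finset.range n, μ.real (E i)) * μ.real (E n)
            + μ.real (E n) * ∑ i ∈ Finset.range n, w i n := by
            rw [Finset.sum_add_distrib, Finset.sum_mul, Finset.mul_sum]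
    rw [h1, Finset.sum_range_succ, Finset.sum_range_succ (fun j => μ.real (E j) * ∑ i ∈ Finset.range j, w i j)]
    have h3 : 0 ≤ μ.real (E n) := measureReal_nonneg
    nlinarith

end Vale.Agent.P028
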