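import Mathlib

/-!
# Overlap estimate on the circle
-/

open MeasureTheory Set Filter

namespace Vale.Agent.P028

/-- number of integers in a closed interval -/
lemma card_int_Icc_le (a b : ℝ) (hab : a ≤ b) :
    ((Finset.Icc ⌈a⌉ ⌊b⌋).card : ℝ) ≤ b - a + 1 := by
  rw [Int.card_Icc]
  have h1 : ((⌊b⌋ + 1 - ⌈a⌉).toNat : ℝ) = (((⌊b⌋ + 1 - ⌈a⌉).toNat : ℤ) : ℝ) := by norm_cast
  rw [h1]
  by_cases h : 0 ≤ ⌊b⌋ + 1 - ⌈a⌉
  · rw [Int.toNat_of_nonneg h]
    push_cast
    have := Int.floor_le b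
    have := Int.le_ceil a
    linarith
  · push Not at h
    rw [Int.toNat_of_nonpos h.le]
    simp
    linarith

lemma count_le (q r : ℕ) (hr : 0 < r) (hcop : Nat.Coprime q r) (z ρ : ℝ) (hρ : 0 ≤ ρ) :
    (((Finset.range r).filter
      (fun j : ℕ => |z + ((q : ℝ) * (j : ℝ)) / r - round (z + ((q : ℝ) * (j : ℝ)) / r)| ≤ ρ)).card : ℝ)
      ≤ 2 * ρ * r + 1 := by
  have hr' : (0 : ℝ) < r := by exact_mod_cast hr
  set J := (Finset.range r).filter
      (fun j : ℕ => |z + ((q : ℝ) * (j : ℝ)) / r - round (z + ((q : ℝ) * (j : ℝ)) / r)| ≤ ρ) with hJ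
  set f : ℕ → ℤ := fun j => (q : ℤ) * j - r * round (z + ((q : ℝ) * (j : ℝ)) / r) with hf
  have hmaps : ∀ j ∈ J, f j ∈ Finset.Icc ⌈-(ρ * r) - r * z⌉ ⌊ρ * r - r * z⌋ := by
    intro j hj
    rw [hJ, Finset.mem_filter] at hj
    have h := hj.2
    rw [abs_le] at h
    have e : (f j : ℝ) = r * (z + ((q : ℝ) * (j : ℝ)) / r
        - round (z + ((q : ℝ) * (j : ℝ)) / r)) - r * z := by
      simp only [hf]
      push_cast
      field_simp
      ring
    rw [Finset.mem_Icc]
    constructor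
    · rw [Int.ceil_le, e]
      have := mul_le_mul_of_nonneg_left h.1 hr'.le
      linarith
    · rw [Int.le_floor, e]
      have := mul_le_mul_of_nonneg_left h.2 hr'.le
      linarith
  have hinj : Set.InjOn f (J : Set ℕ) := by
    intro j hj j' hj' hjj
    simp only [hJ, Finset.coe_filter, Finset.mem_range, Set.mem_ofPred_eq] at hj hj'
    simp only [hf] at hjj
    have h1 : (r : ℤ) ∣ (q : ℤ) * ((j : ℤ) - j') := by
      refine ⟨round (z + ((q : ℝ) * (j : ℝ)) / r) - round (z + ((q : ℝ) * (j' : ℝ)) / r), ?_⟩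
      linarith
    have hcop' : IsCoprime (r : ℤ) (q : ℤ) := by
      rw [Nat.isCoprime_iff_coprime]
      exact hcop.symm
    have h2 : (r : ℤ) ∣ (j : ℤ) - j' := hcop'.dvd_of_dvd_mul_left h1
    have h3 : |(j : ℤ) - j'| < r := by
      rw [abs_lt]
      constructor <;> omega
    have h4 : (j : ℤ) - j' = 0 := Int.eq_zero_of_abs_lt_dvd h2 h3
    omega
  have hcard := Finset.card_le_card_of_injOn f hmaps hinj
  have h5 := card_int_Icc_le (-(ρ * r) - r * z) (ρ * r - r * z) (by nlinarith)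
  calc (J.card : ℝ)
      ≤ ((Finset.Icc ⌈-(ρ * r) - r * z⌉ ⌊ρ * r - r * z⌋).card : ℝ) := by exact_mod_cast hcard
    _ ≤ (ρ * r - r * z) - (-(ρ * r) - r * z) + 1 := h5
    _ = 2 * ρ * r + 1 := by ring

end Vale.Agent.P028

namespace Vale.Agent.P028

/-- the set of `y` on the circle with `q • y` in the closed ball of radius `ρ` about `c` -/
def A (q : ℕ) (c : UnitAddCircle) (ρ : ℝ) : Set UnitAddCircle :=
  (fun y : UnitAddCircle => q • y) ⁻¹' Metric.closedBall c ρ

lemma continuous_nsmul_circle (q : ℕ) : Continuous (fun y : UnitAddCircle => q • y) :=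
  continuous_nsmul q

lemma measurableSet_A (q : ℕ) (c : UnitAddCircle) (ρ : ℝ) : MeasurableSet (A q c ρ) :=
  (continuous_nsmul_circle q).measurable measurableSet_closedBall

lemma mp_nsmul (q : ℕ) (hq : 0 < q) :
    MeasurePreserving (fun y : UnitAddCircle => q • y) volume volume := by
  have h := Measure.measurePreserving_zsmul (volume : Measure UnitAddCircle) (n := (q : ℤ))
    (by exact_mod_cast hq.ne')
  simpa using h

lemma volume_A (q : ℕ) (hq : 0 < q) (c : UnitAddCircle) (ρ : ℝ) :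
    volume (A q c ρ) = ENNReal.ofReal (min 1 (2 * ρ)) := by
  unfold A
  rw [(mp_nsmul q hq).measure_preimage measurableSet_closedBall.nullMeasurableSet,
    AddCircle.volume_closedBall]

lemma volume_real_A (q : ℕ) (hq : 0 < q) (c : UnitAddCircle) (ρ : ℝ) (hρ : 0 ≤ ρ) :
    volume.real (A q c ρ) = min 1 (2 * ρ) := by
  rw [measureReal_def, volume_A q hq, ENNReal.toReal_ofReal]
  exact le_min zero_le_one (by linarith)

lemma mem_A_shift (q r : ℕ) (y c : UnitAddCircle) (ρ z : ℝ)
    (hz : (z : UnitAddCircle) = q • y - c) (j : ℕ) :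
    (y + j • (((1 : ℝ) / r : ℝ) : UnitAddCircle)) ∈ A q c ρ ↔
      |z + ((q : ℝ) * (j : ℝ)) / r - round (z + ((q : ℝ) * (j : ℝ)) / r)| ≤ ρ := by
  unfold A
  rw [Set.mem_preimage, mem_closedBall_iff_norm, ← UnitAddCircle.norm_eq]
  have : q • (y + j • (((1 : ℝ) / r : ℝ) : UnitAddCircle)) - c
      = ((z + ((q : ℝ) * (j : ℝ)) / r : ℝ) : UnitAddCircle) := by
    rw [AddCircle.coe_add, hz, smul_add, smul_smul, ← AddCircle.coe_nsmul]
    have : ((q * j) • ((1 : ℝ) / r) : ℝ) = ((q : ℝ) * (j : ℝ)) / r := by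
      rw [nsmul_eq_mul]; push_cast; ring
    rw [this]
    abel
  rw [this]

lemma count_circle (q r : ℕ) (hr : 0 < r) (hcop : Nat.Coprime q r) (y c : UnitAddCircle)
    (ρ : ℝ) (hρ : 0 ≤ ρ) :
    ∑ j ∈ Finset.range r, (A q c ρ).indicator (fun _ => (1 : ℝ))
      (y + j • (((1 : ℝ) / r : ℝ) : UnitAddCircle)) ≤ 2 * ρ * r + 1 := by
  obtain ⟨z, hz⟩ := QuotientAddGroup.mk_surjective (q • y - c)
  have h := count_le q r hr hcop z ρ hρ
  refine le_trans (le_of_eq ?_) h
  rw [Finset.card_filter]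
  push_cast
  apply Finset.sum_congr rfl
  intro j _
  by_cases hj : (y + j • (((1 : ℝ) / r : ℝ) : UnitAddCircle)) ∈ A q c ρ
  · rw [Set.indicator_of_mem hj, if_pos ((mem_A_shift q r y c ρ z hz j).1 hj)]
  · rw [Set.indicator_of_notMem hj, if_neg (fun h => hj ((mem_A_shift q r y c ρ z hz j).2 h))]

lemma A_shift_invariant (r : ℕ) (hr : 0 < r) (c : UnitAddCircle) (ρ : ℝ) (y : UnitAddCircle)
    (j : ℕ) : (y + j • (((1 : ℝ) / r : ℝ) : UnitAddCircle)) ∈ A r c ρ ↔ y ∈ A r c ρ := by
  unfold A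
  simp only [Set.mem_preimage]
  have : r • (y + j • (((1 : ℝ) / r : ℝ) : UnitAddCircle)) = r • y := by
    rw [smul_add, smul_smul, mul_comm, ← smul_smul, ← AddCircle.coe_nsmul]
    have h1 : (r • ((1 : ℝ) / r) : ℝ) = 1 := by
      rw [nsmul_eq_mul]
      have : (r : ℝ) ≠ 0 := by exact_mod_cast hr.ne'
      field_simp
    rw [h1, AddCircle.coe_period]
    simp
  rw [this]

lemma overlap_coprime (q r : ℕ) (hr : 0 < r) (hcop : Nat.Coprime q r)
    (c c' : UnitAddCircle) (ρ ρ' : ℝ) (hρ : 0 ≤ ρ) :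
    volume.real (A q c ρ ∩ A r c' ρ') ≤ volume.real (A r c' ρ') * (2 * ρ + 1 / r) := by
  have hr' : (0 : ℝ) < r := by exact_mod_cast hr
  set t : UnitAddCircle := (((1 : ℝ) / r : ℝ) : UnitAddCircle) with ht
  set F : UnitAddCircle → ℝ := (A q c ρ ∩ A r c' ρ').indicator (fun _ => (1 : ℝ)) with hF
  have hFint : Integrable F volume :=
    (integrable_const (1 : ℝ)).indicator ((measurableSet_A q c ρ).inter (measurableSet_A r c' ρ'))
  have h0 : ∫ y, F y = volume.real (A q c ρ ∩ A r c' ρ') := by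
    rw [hF, integral_indicator ((measurableSet_A q c ρ).inter (measurableSet_A r c' ρ'))]
    simp
  have h1 : ∀ j : ℕ, ∫ y, F (y + j • t) = volume.real (A q c ρ ∩ A r c' ρ') := by
    intro j
    rw [integral_add_right_eq_self F (j • t), h0]
  have h2 : ∀ (j : ℕ) (y : UnitAddCircle), F (y + j • t)
      = (A r c' ρ').indicator (fun _ => (1 : ℝ)) y
        * (A q c ρ).indicator (fun _ => (1 : ℝ)) (y + j • t) := by
    intro j y
    have hinv := A_shift_invariant r hr c' ρ' y j
    rw [← ht] at hinv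
    by_cases ha : y ∈ A r c' ρ' <;> by_cases hb : (y + j • t) ∈ A q c ρ <;>
      simp [hF, ha, hb, hinv]
  have hFjint : ∀ j : ℕ, Integrable (fun y => F (y + j • t)) volume := fun j =>
    hFint.comp_add_right (j • t)
  have h3 : (r : ℝ) * volume.real (A q c ρ ∩ A r c' ρ')
      = ∫ y, ∑ j ∈ Finset.range r, F (y + j • t) := by
    rw [integral_finsetSum _ (fun j _ => hFjint j)]
    simp [h1]
  have h4 : ∫ y, ∑ j ∈ Finset.range r, F (y + j • t)
      ≤ ∫ y, (A r c' ρ').indicator (fun _ => (2 * ρ * r + 1 : ℝ)) y := by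
    apply integral_mono
    · exact integrable_finsetSum _ (fun j _ => hFjint j)
    · exact (integrable_const _).indicator (measurableSet_A r c' ρ')
    · intro y
      simp only [h2, ← Finset.mul_sum]
      have hc := count_circle q r hr hcop y c ρ hρ
      rw [← ht] at hc
      by_cases ha : y ∈ A r c' ρ'
      · simp only [Set.indicator_of_mem ha, one_mul]
        exact hc
      · simp [Set.indicator_of_notMem ha]
  rw [integral_indicator (measurableSet_A r c' ρ')] at h4
  simp only [integral_const, MeasurableSet.univ, measureReal_restrict_apply, univ_inter,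
    smul_eq_mul] at h4
  rw [← h3] at h4
  have h5 : volume.real (A r c' ρ') * (2 * ρ + 1 / r) * r
      = volume.real (A r c' ρ') * (2 * ρ * r + 1) := by
    field_simp
  have h6 : volume.real (A q c ρ ∩ A r c' ρ') * r
      ≤ volume.real (A r c' ρ') * (2 * ρ + 1 / r) * r := by
    rw [h5]; linarith
  exact le_of_mul_le_mul_right h6 hr'

end Vale.Agent.P028

namespace Vale.Agent.P028

lemma A_mul (g q : ℕ) (c : UnitAddCircle) (ρ : ℝ) :
    A (g * q) c ρ = (fun y : UnitAddCircle => g • y) ⁻¹' (A q c ρ) := by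
  unfold A
  ext y
  simp only [Set.mem_preimage]
  rw [smul_smul, mul_comm]

/-- **Overlap estimate** with the exact constant `1` in front of the main term. -/
lemma overlap (q r : ℕ) (hq : 0 < q) (hr : 0 < r)
    (c c' : UnitAddCircle) (ρ ρ' : ℝ) (hρ : 0 ≤ ρ) :
    volume.real (A q c ρ ∩ A r c' ρ')
      ≤ volume.real (A r c' ρ') * (2 * ρ + (Nat.gcd q r : ℝ) / r) := by
  set g := Nat.gcd q r with hg
  have hgpos : 0 < g := Nat.gcd_pos_of_pos_left r hq
  obtain ⟨q', hq'⟩ : g ∣ q := Nat.gcd_dvd_left q r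
  obtain ⟨r', hr'⟩ : g ∣ r := Nat.gcd_dvd_right q r
  have hr'pos : 0 < r' := by
    rcases Nat.eq_zero_or_pos r' with h | h
    · rw [h] at hr'; omega
    · exact h
  have hcop : Nat.Coprime q' r' := by
    have h := Nat.coprime_div_gcd_div_gcd (m := q) (n := r) hgpos
    rw [← hg] at h
    have e1 : q / g = q' := by rw [hq']; exact Nat.mul_div_cancel_left q' hgpos
    have e2 : r / g = r' := by rw [hr']; exact Nat.mul_div_cancel_left r' hgpos
    rwa [e1, e2] at h
  have hmp := mp_nsmul g hgpos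
  have e1 : volume.real (A q c ρ ∩ A r c' ρ') = volume.real (A q' c ρ ∩ A r' c' ρ') := by
    conv_lhs => rw [hq', hr']
    rw [A_mul, A_mul, ← Set.preimage_inter, measureReal_def, measureReal_def,
      hmp.measure_preimage
        ((measurableSet_A q' c ρ).inter (measurableSet_A r' c' ρ')).nullMeasurableSet]
  have e2 : volume.real (A r c' ρ') = volume.real (A r' c' ρ') := by
    conv_lhs => rw [hr']
    rw [A_mul, measureReal_def, measureReal_def,
      hmp.measure_preimage (measurableSet_A r' c' ρ').nullMeasurableSet]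
  have e3 : (g : ℝ) / r = 1 / r' := by
    conv_lhs => rw [hr']
    have h1 : (g : ℝ) ≠ 0 := by exact_mod_cast hgpos.ne'
    have h2 : (r' : ℝ) ≠ 0 := by exact_mod_cast hr'pos.ne'
    push_cast
    field_simp
  rw [e1, e2, e3]
  exact overlap_coprime q' r' hr'pos hcop c c' ρ ρ' hρ

end Vale.Agent.P028
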