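import Vale.Agent.P028.SecondMoment
import Vale.Agent.P028.Overlap

/-!
# Inhomogeneous approximation with denominators in a set with bounded gcd sums
-/

open MeasureTheory Set Filter

namespace Vale.Agent.P028

/-- transfer of an a.e. statement from the circle to the line -/
lemma ae_real_of_ae_circle {P : UnitAddCircle → Prop} (h : ∀ᵐ y : UnitAddCircle, P y) :
    ∀ᵐ x : ℝ, P (x : UnitAddCircle) := by
  have h1 : ∀ n : ℤ, ∀ᵐ x : ℝ ∂(volume.restrict (Ioc (n : ℝ) (n + 1))), P (x : UnitAddCircle) := by
    intro n
    exact (UnitAddCircle.measurePreserving_mk (n : ℝ)).quasiMeasurePreserving.ae h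
  have h2 : ∀ᵐ x : ℝ ∂(volume.restrict (⋃ n : ℤ, Ioc (n : ℝ) (n + 1))), P (x : UnitAddCircle) :=
    (ae_restrict_iUnion_iff _ _).2 h1
  rw [iUnion_Ioc_intCast, Measure.restrict_univ] at h2
  exact h2

lemma mem_A_real (q : ℕ) (x γ ρ : ℝ) (h : (x : UnitAddCircle) ∈ A q (γ : UnitAddCircle) ρ) :
    ∃ a : ℤ, |(q : ℝ) * x - a - γ| ≤ ρ := by
  unfold A at h
  rw [Set.mem_preimage, mem_closedBall_iff_norm] at h
  have e : q • (x : UnitAddCircle) - (γ : UnitAddCircle)
      = (((q : ℝ) * x - γ : ℝ) : UnitAddCircle) := by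
    rw [AddCircle.coe_sub, ← AddCircle.coe_nsmul, nsmul_eq_mul]
  rw [e, UnitAddCircle.norm_eq] at h
  refine ⟨round ((q : ℝ) * x - γ), ?_⟩
  have : (q : ℝ) * x - (round ((q : ℝ) * x - γ) : ℝ) - γ
      = (q : ℝ) * x - γ - (round ((q : ℝ) * x - γ) : ℝ) := by ring
  rw [this]
  exact h

lemma not_summable_min {ψ : ℕ → ℝ} (h0 : ∀ q, 0 ≤ ψ q) (hdiv : ¬ Summable ψ) :
    ¬ Summable (fun q => min (ψ q) 1) := by
  intro hs
  apply hdiv
  have ht := hs.tendsto_atTop_zero
  have hev : ∀ᶠ q in atTop, min (ψ q) 1 < 1 := ht.eventually_lt_const zero_lt_one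
  apply Summable.of_norm_bounded_eventually_nat hs
  filter_upwards [hev] with q hq
  rw [Real.norm_of_nonneg (h0 q)]
  rcases le_total (ψ q) 1 with h | h
  · rw [min_eq_left h]
  · rw [min_eq_right h] at hq
    exact absurd hq (lt_irrefl _)

/-- **Main theorem.** Let `S` be a set of positive integers with bounded gcd sums, `ψ ≥ 0`
supported on `S` with divergent sum. Then for every sequence of shifts `γ q`, almost every real
`x` satisfies `|q x - a - γ q| < ψ q` for infinitely many `q`. -/
theorem main (S : Set ℕ) [DecidablePred (fun q => q ∈ S)] (C : ℝ)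
    (hS : ∀ r ∈ S, ∑ q ∈ (Finset.Ico 1 r).filter (fun q => q ∈ S), (Nat.gcd q r : ℝ) ≤ C * r)
    (ψ : ℕ → ℝ) (hψ0 : ∀ q, 0 ≤ ψ q) (hψS : ∀ q, q ∉ S → ψ q = 0)
    (hdiv : ¬ Summable ψ) (γ : ℕ → ℝ) :
    ∀ᵐ x : ℝ, {q : ℕ | 0 < q ∧ ∃ a : ℤ, |(q : ℝ) * x - a - γ q| < ψ q}.Infinite := by
  -- the events
  set E : ℕ → Set UnitAddCircle := fun q =>
    if 0 < q ∧ 0 < ψ q then A q (γ q : UnitAddCircle) (min (ψ q) 1 / 2) else ∅ with hEdef
  have hEmeas : ∀ q, MeasurableSet (E q) := by
    intro q
    simp only [hEdef]
    split_ifs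
    · exact measurableSet_A _ _ _
    · exact MeasurableSet.empty
  have hm : ∀ q, 0 < q → volume.real (E q) = min (ψ q) 1 := by
    intro q hq
    simp only [hEdef]
    by_cases h : 0 < ψ q
    · rw [if_pos ⟨hq, h⟩, volume_real_A q hq _ _ (by positivity)]
      have : 2 * (min (ψ q) 1 / 2) = min (ψ q) 1 := by ring
      rw [this]
      exact min_eq_right (min_le_right _ _)
    · have h' : ψ q = 0 := le_antisymm (not_lt.1 h) (hψ0 q)
      rw [if_neg (fun hh => h hh.2), h']
      simp
  have hm0 : volume.real (E 0) = 0 := by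
    simp [hEdef]
  set w : ℕ → ℕ → ℝ := fun i j => if 0 < i ∧ i ∈ S then (Nat.gcd i j : ℝ) / j else 0 with hw
  have hwnn : ∀ i j, 0 ≤ w i j := by
    intro i j
    simp only [hw]
    split_ifs
    · positivity
    · exact le_rfl
  have : IsProbabilityMeasure (volume : Measure UnitAddCircle) := ⟨UnitAddCircle.measure_univ⟩
  have hcircle : ∀ᵐ y : UnitAddCircle, {q | y ∈ E q}.Infinite := by
    apply ae_infinite_of_pairwise volume hEmeas C w
    · -- divergence
      have hns : ¬ Summable (fun q => volume.real (E q)) := by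
        intro hs
        apply not_summable_min hψ0 hdiv
        rw [← summable_nat_add_iff 1] at hs ⊢
        refine hs.congr ?_
        intro q
        exact hm (q + 1) (Nat.succ_pos q)
      exact (not_summable_iff_tendsto_nat_atTop_of_nonneg (fun _ => measureReal_nonneg)).1 hns
    · -- pair bound
      intro i j hij
      by_cases hi : 0 < i ∧ 0 < ψ i
      · by_cases hj : 0 < j ∧ 0 < ψ j
        · have hiS : i ∈ S := by
            by_contra hcon
            have := hψS i hcon
            linarith [hi.2]
          have hov := overlap i j hi.1 hj.1 (γ i : UnitAddCircle) (γ j : UnitAddCircle)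
            (min (ψ i) 1 / 2) (min (ψ j) 1 / 2) (by have := hψ0 i; positivity)
          have e1 : E i = A i (γ i : UnitAddCircle) (min (ψ i) 1 / 2) := by
            simp only [hEdef]; rw [if_pos hi]
          have e2 : E j = A j (γ j : UnitAddCircle) (min (ψ j) 1 / 2) := by
            simp only [hEdef]; rw [if_pos hj]
          have e3 : w i j = (Nat.gcd i j : ℝ) / j := by
            simp only [hw]; rw [if_pos ⟨hi.1, hiS⟩]
          have e4 : volume.real (E i) = 2 * (min (ψ i) 1 / 2) := by
            rw [hm i hi.1]; ring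
          rw [← e1, ← e2] at hov
          rw [e3, e4]
          calc volume.real (E i ∩ E j)
              ≤ volume.real (E j) * (2 * (min (ψ i) 1 / 2) + (Nat.gcd i j : ℝ) / j) := hov
            _ = _ := by ring
        · have e2 : E j = ∅ := by
            simp only [hEdef]; rw [if_neg hj]
          rw [e2]
          simp
      · have e1 : E i = ∅ := by
          simp only [hEdef]; rw [if_neg hi]
        rw [e1]
        simp only [Set.empty_inter, measureReal_empty, zero_mul, zero_add]
        exact mul_nonneg measureReal_nonneg (hwnn i j)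
    · -- gcd sums
      intro j
      by_cases hj : 0 < j ∧ 0 < ψ j
      · have hjS : j ∈ S := by
          by_contra hcon
          have := hψS j hcon
          linarith [hj.2]
        have hjpos : (0 : ℝ) < j := by exact_mod_cast hj.1
        have h1 : ∑ i ∈ Finset.range j, w i j ≤ C := by
          have h2 : ∑ i ∈ Finset.range j, w i j
              = (∑ q ∈ (Finset.Ico 1 j).filter (fun q => q ∈ S), (Nat.gcd q j : ℝ)) / j := by
            rw [Finset.sum_div, Finset.sum_filter]
            simp only [hw]
            rw [Finset.range_eq_Ico, Finset.sum_eq_sum_Ico_succ_bot hj.1]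
            simp only [lt_self_iff_false, false_and, if_false, zero_add]
            apply Finset.sum_congr rfl
            intro q hq
            have hq1 : 0 < q := by
              have := (Finset.mem_Ico.1 hq).1
              omega
            by_cases hqS : q ∈ S
            · simp [hq1, hqS]
            · simp [hqS]
          rw [h2, div_le_iff₀ hjpos]
          exact hS j hjS
        rw [mul_comm C]
        exact mul_le_mul_of_nonneg_left h1 measureReal_nonneg
      · have e2 : E j = ∅ := by
          simp only [hEdef]; rw [if_neg hj]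
        rw [e2]
        simp
  have hreal := ae_real_of_ae_circle hcircle
  filter_upwards [hreal] with x hx
  refine hx.mono ?_
  intro q hq
  simp only [Set.mem_ofPred_eq] at hq ⊢
  by_cases hq' : 0 < q ∧ 0 < ψ q
  · have e1 : E q = A q (γ q : UnitAddCircle) (min (ψ q) 1 / 2) := by
      simp only [hEdef]; rw [if_pos hq']
    rw [e1] at hq
    obtain ⟨a, ha⟩ := mem_A_real q x (γ q) _ hq
    refine ⟨hq'.1, a, lt_of_le_of_lt ha ?_⟩
    have : min (ψ q) 1 ≤ ψ q := min_le_left _ _
    linarith [hq'.2]
  · have e1 : E q = ∅ := by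
      simp only [hEdef]; rw [if_neg hq']
    rw [e1] at hq
    exact absurd hq (Set.notMem_empty _)

end Vale.Agent.P028
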