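import Mathlib

/-!
# A second-moment divergence Borel-Cantelli lemma

If `E i` are events in a probability space with divergent sum of measures and
`∑_{i,j<n} μ(E i ∩ E j) ≤ (∑_{i<n} μ(E i))^2 + C ∑_{i<n} μ(E i)` for all `n`, then almost every
point lies in infinitely many `E i`.
-/

open MeasureTheory Set Filter

namespace Vale.Agent.P028

set_option linter.unusedSectionVars false

variable {Ω : Type*} [MeasurableSpace Ω] (μ : Measure Ω) [IsProbabilityMeasure μ]

/-- counting function -/
noncomputable def cnt (E : ℕ → Set Ω) (n : ℕ) (ω : Ω) : ℝ :=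
  ∑ i ∈ Finset.range n, (E i).indicator (fun _ => (1 : ℝ)) ω

lemma cnt_measurable {E : ℕ → Set Ω} (hE : ∀ i, MeasurableSet (E i)) (n : ℕ) :
    Measurable (cnt E n) := by
  unfold cnt
  exact Finset.measurable_sum _ (fun i _ => measurable_const.indicator (hE i))

lemma cnt_nonneg (E : ℕ → Set Ω) (n : ℕ) (ω : Ω) : 0 ≤ cnt E n ω := by
  unfold cnt
  exact Finset.sum_nonneg (fun i _ => Set.indicator_nonneg (fun _ _ => zero_le_one) _)

lemma cnt_le (E : ℕ → Set Ω) (n : ℕ) (ω : Ω) : cnt E n ω ≤ n := by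
  unfold cnt
  calc ∑ i ∈ Finset.range n, (E i).indicator (fun _ => (1 : ℝ)) ω
      ≤ ∑ i ∈ Finset.range n, (1 : ℝ) := by
        apply Finset.sum_le_sum
        intro i _
        exact Set.indicator_le_self' (fun _ _ => zero_le_one) _
    _ = n := by simp

lemma integrable_ind {E : ℕ → Set Ω} (hE : ∀ i, MeasurableSet (E i)) (i : ℕ) :
    Integrable ((E i).indicator (fun _ => (1 : ℝ))) μ :=
  (integrable_const (1 : ℝ)).indicator (hE i)

lemma integral_cnt {E : ℕ → Set Ω} (hE : ∀ i, MeasurableSet (E i)) (n : ℕ) :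
    ∫ ω, cnt E n ω ∂μ = ∑ i ∈ Finset.range n, μ.real (E i) := by
  unfold cnt
  rw [integral_finsetSum _ (fun i _ => integrable_ind μ hE i)]
  apply Finset.sum_congr rfl
  intro i _
  rw [integral_indicator (hE i)]
  simp

lemma cnt_sq (E : ℕ → Set Ω) (n : ℕ) (ω : Ω) :
    cnt E n ω ^ 2 = ∑ i ∈ Finset.range n, ∑ j ∈ Finset.range n,
      (E i ∩ E j).indicator (fun _ => (1 : ℝ)) ω := by
  unfold cnt
  rw [sq, Finset.sum_mul_sum]
  apply Finset.sum_congr rfl
  intro i _
  apply Finset.sum_congr rfl
  intro j _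
  by_cases h1 : ω ∈ E i <;> by_cases h2 : ω ∈ E j <;> simp [h1, h2]

lemma integral_cnt_sq {E : ℕ → Set Ω} (hE : ∀ i, MeasurableSet (E i)) (n : ℕ) :
    ∫ ω, cnt E n ω ^ 2 ∂μ
      = ∑ i ∈ Finset.range n, ∑ j ∈ Finset.range n, μ.real (E i ∩ E j) := by
  simp_rw [cnt_sq]
  have hint : ∀ i j, Integrable ((E i ∩ E j).indicator (fun _ => (1 : ℝ))) μ := fun i j =>
    (integrable_const (1 : ℝ)).indicator ((hE i).inter (hE j))
  rw [integral_finsetSum _ (fun i _ => integrable_finsetSum _ (fun j _ => hint i j))]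
  apply Finset.sum_congr rfl
  intro i _
  rw [integral_finsetSum _ (fun j _ => hint i j)]
  apply Finset.sum_congr rfl
  intro j _
  rw [integral_indicator ((hE i).inter (hE j))]
  simp

lemma integrable_cnt {E : ℕ → Set Ω} (hE : ∀ i, MeasurableSet (E i)) (n : ℕ) :
    Integrable (cnt E n) μ := by
  unfold cnt
  exact integrable_finsetSum _ (fun i _ => integrable_ind μ hE i)

lemma integrable_cnt_sq {E : ℕ → Set Ω} (hE : ∀ i, MeasurableSet (E i)) (n : ℕ) :
    Integrable (fun ω => cnt E n ω ^ 2) μ := by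
  simp_rw [cnt_sq]
  exact integrable_finsetSum _ (fun i _ => integrable_finsetSum _ (fun j _ =>
    (integrable_const (1 : ℝ)).indicator ((hE i).inter (hE j))))

/-- variance bound -/
lemma integral_cnt_sub_sq {E : ℕ → Set Ω} (hE : ∀ i, MeasurableSet (E i)) (n : ℕ) :
    ∫ ω, (cnt E n ω - ∑ i ∈ Finset.range n, μ.real (E i)) ^ 2 ∂μ
      = (∑ i ∈ Finset.range n, ∑ j ∈ Finset.range n, μ.real (E i ∩ E j))
        - (∑ i ∈ Finset.range n, μ.real (E i)) ^ 2 := by
  set a := ∑ i ∈ Finset.range n, μ.real (E i) with ha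
  have h1 : ∀ ω, (cnt E n ω - a) ^ 2 = cnt E n ω ^ 2 - (2 * a) * cnt E n ω + a ^ 2 := by
    intro ω; ring
  simp_rw [h1]
  rw [integral_add, integral_sub, integral_const_mul, integral_cnt μ hE, integral_cnt_sq μ hE,
    integral_const]
  · simp only [probReal_univ, smul_eq_mul, one_mul]
    rw [← ha]; ring
  · exact integrable_cnt_sq μ hE n
  · exact (integrable_cnt μ hE n).const_mul _
  · exact (integrable_cnt_sq μ hE n).sub ((integrable_cnt μ hE n).const_mul _)
  · exact integrable_const _

/-- **Second-moment Borel-Cantelli.** -/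
theorem ae_infinite_of_second_moment {E : ℕ → Set Ω} (hE : ∀ i, MeasurableSet (E i)) (C : ℝ)
    (hdiv : Tendsto (fun n => ∑ i ∈ Finset.range n, μ.real (E i)) atTop atTop)
    (hpair : ∀ n, ∑ i ∈ Finset.range n, ∑ j ∈ Finset.range n, μ.real (E i ∩ E j)
      ≤ (∑ i ∈ Finset.range n, μ.real (E i)) ^ 2 + C * ∑ i ∈ Finset.range n, μ.real (E i)) :
    ∀ᵐ ω ∂μ, {i | ω ∈ E i}.Infinite := by
  -- the bad sets
  set Z : ℕ → Set Ω := fun K => {ω | ∀ n, cnt E n ω ≤ K} with hZ
  have hZmeas : ∀ K, MeasurableSet (Z K) := by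
    intro K
    have : Z K = ⋂ n, {ω | cnt E n ω ≤ K} := by
      ext ω; simp [hZ]
    rw [this]
    exact MeasurableSet.iInter (fun n => measurableSet_le (cnt_measurable hE n) measurable_const)
  have hZnull : ∀ K, μ (Z K) = 0 := by
    intro K
    -- for all n with a_n ≥ 2K+1 : μ.real (Z K) * (a_n/2)^2 ≤ C a_n
    have key : ∀ n, (2 * (K : ℝ) + 1 ≤ ∑ i ∈ Finset.range n, μ.real (E i)) →
        μ.real (Z K) * (∑ i ∈ Finset.range n, μ.real (E i)) ≤ 4 * C := by
      intro n hn
      set a := ∑ i ∈ Finset.range n, μ.real (E i) with ha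
      have hapos : 0 < a := by
        have : (0 : ℝ) ≤ K := Nat.cast_nonneg K
        linarith
      have h1 : ∫ ω, (cnt E n ω - a) ^ 2 ∂μ ≤ C * a := by
        rw [ha, integral_cnt_sub_sq μ hE n]
        have := hpair n
        linarith
      have h2 : ∫ ω, (Z K).indicator (fun _ => (a / 2) ^ 2) ω ∂μ
          ≤ ∫ ω, (cnt E n ω - a) ^ 2 ∂μ := by
        apply integral_mono
        · exact (integrable_const _).indicator (hZmeas K)
        · have h1 : ∀ ω, (cnt E n ω - a) ^ 2 = cnt E n ω ^ 2 - (2 * a) * cnt E n ω + a ^ 2 := by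
            intro ω; ring
          simp_rw [h1]
          exact ((integrable_cnt_sq μ hE n).sub ((integrable_cnt μ hE n).const_mul _)).add
            (integrable_const _)
        · intro ω
          by_cases hω : ω ∈ Z K
          · simp only [Set.indicator_of_mem hω]
            have h3 : cnt E n ω ≤ K := hω n
            have h4 : a / 2 ≤ a - cnt E n ω := by linarith
            have h5 : (a / 2) ^ 2 ≤ (a - cnt E n ω) ^ 2 := by
              apply pow_le_pow_left₀ (by positivity) h4
            calc (a / 2) ^ 2 ≤ (a - cnt E n ω) ^ 2 := h5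
              _ = (cnt E n ω - a) ^ 2 := by ring
          · simp only [Set.indicator_of_notMem hω]
            positivity
      rw [integral_indicator (hZmeas K)] at h2
      simp only [integral_const, MeasurableSet.univ, measureReal_restrict_apply, univ_inter,
        smul_eq_mul] at h2
      have h6 : μ.real (Z K) * (a / 2) ^ 2 ≤ C * a := le_trans h2 h1
      have h7 : μ.real (Z K) * a * a ≤ 4 * C * a := by nlinarith
      exact le_of_mul_le_mul_right h7 hapos
    by_contra hne
    have hpos : 0 < μ.real (Z K) := by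
      rw [measureReal_def]
      exact ENNReal.toReal_pos hne (measure_ne_top _ _)
    -- choose n with a_n large
    have hev := (hdiv.eventually_ge_atTop (max (2 * (K : ℝ) + 1) ((4 * C + 1) / μ.real (Z K))))
    obtain ⟨n, hn⟩ := hev.exists
    have h1 := key n (le_trans (le_max_left _ _) hn)
    have h2 : (4 * C + 1) / μ.real (Z K) ≤ ∑ i ∈ Finset.range n, μ.real (E i) :=
      le_trans (le_max_right _ _) hn
    rw [div_le_iff₀ hpos] at h2
    linarith
  have hnull : μ (⋃ K, Z K) = 0 := measure_iUnion_null hZnull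
  rw [ae_iff]
  refine measure_mono_null ?_ hnull
  intro ω hω
  simp only [Set.mem_ofPred_eq, Set.not_infinite] at hω
  rw [Set.mem_iUnion]
  refine ⟨hω.toFinset.card, ?_⟩
  intro n
  unfold cnt
  classical
  rw [Finset.sum_indicator_eq_sum_filter]
  simp only [Finset.sum_const, nsmul_eq_mul, mul_one]
  norm_cast
  apply Finset.card_le_card
  intro i hi
  simp only [Finset.mem_filter] at hi
  simpa using hi.2

/-- Version with a pairwise overlap hypothesis. -/
theorem ae_infinite_of_pairwise {E : ℕ → Set Ω} (hE : ∀ i, MeasurableSet (E i)) (C : ℝ)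
    (w : ℕ → ℕ → ℝ)
    (hdiv : Tendsto (fun n => ∑ i ∈ Finset.range n, μ.real (E i)) atTop atTop)
    (hpair : ∀ i j, i < j → μ.real (E i ∩ E j) ≤ μ.real (E i) * μ.real (E j) + μ.real (E j) * w i j)
    (hw : ∀ j, μ.real (E j) * ∑ i ∈ Finset.range j, w i j ≤ C * μ.real (E j)) :
    ∀ᵐ ω ∂μ, {i | ω ∈ E i}.Infinite := by
  apply ae_infinite_of_second_moment μ hE (1 + 2 * C) hdiv
  intro n
  induction n with
  | zero => simp
  | succ n ih =>
    have h1 : ∑ i ∈ Finset.range (n + 1), ∑ j ∈ Finset.range (n + 1), μ.real (E i ∩ E j)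
        = (∑ i ∈ Finset.range n, ∑ j ∈ Finset.range n, μ.real (E i ∩ E j))
          + 2 * (∑ i ∈ Finset.range n, μ.real (E i ∩ E n)) + μ.real (E n) := by
      rw [Finset.sum_range_succ]
      simp_rw [Finset.sum_range_succ]
      rw [Finset.sum_add_distrib, Set.inter_self]
      have : ∑ j ∈ Finset.range n, μ.real (E n ∩ E j) = ∑ i ∈ Finset.range n, μ.real (E i ∩ E n) := by
        apply Finset.sum_congr rfl
        intro i _
        rw [Set.inter_comm]
      rw [this]
      ring
    have h2 : ∑ i ∈ Finset.range n, μ.real (E i ∩ E n)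
        ≤ (∑ i ∈ Finset.range n, μ.real (E i)) * μ.real (E n) + C * μ.real (E n) := by
      calc ∑ i ∈ Finset.range n, μ.real (E i ∩ E n)
          ≤ ∑ i ∈ Finset.range n, (μ.real (E i) * μ.real (E n) + μ.real (E n) * w i n) := by
            apply Finset.sum_le_sum
            intro i hi
            exact hpair i n (Finset.mem_range.1 hi)
        _ = (∑ i ∈ Finset.range n, μ.real (E i)) * μ.real (E n)
            + μ.real (E n) * ∑ i ∈ Finset.range n, w i n := by
            rw [Finset.sum_add_distrib, Finset.sum_mul, Finset.mul_sum]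
        _ ≤ _ := by
            have := hw n
            linarith
    rw [h1, Finset.sum_range_succ]
    have h3 : 0 ≤ μ.real (E n) := measureReal_nonneg
    nlinarith

end Vale.Agent.P028
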